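import Vale.Agent.P073.RT.H739.TilingR

/-!
# P073: boxes around `K` with a prescribed mesh function
-/

namespace Vale.Agent.P073.RT.H739

open MeasureTheory Set Filter Topology Metric
open Vale.Agent.P073.SQ (cube)
open Vale.Agent.P073.H880 (Boxes)
open Vale.Agent.P073.H739
open _root_.P073.Net (SizeFn IsTile dyc dyo)
open scoped ENNReal

/-- a Lipschitz minorant of a positive continuous function -/
theorem exists_minorant {Ω : Set V3} (hΩ : IsOpen Ω) {θ : V3 → ℝ} (hθ : ContinuousOn θ Ω)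
    (hθ0 : ∀ x ∈ Ω, 0 < θ x) : ∃ ρ₀ : V3 → ℝ, SizeFn Ω ρ₀ ∧ ∀ x ∈ Ω, ρ₀ x ≤ θ x := by
  set S : Set (V3 × ℝ) := {q | q.1 ∈ Ω ∧ q.2 < θ q.1} with hS
  have hne : Sᶜ.Nonempty := ⟨((0 : V3), θ 0), fun h => lt_irrefl _ h.2⟩
  have hSo : IsOpen S := by
    rw [isOpen_iff_mem_nhds]
    rintro ⟨x, s⟩ ⟨hx, h1⟩
    have t1 : Tendsto (fun q : V3 × ℝ => q.1) (𝓝 (x, s)) (𝓝 x) := continuous_fst.tendsto (x, s)
    have t2 : Tendsto (fun q : V3 × ℝ => q.2) (𝓝 (x, s)) (𝓝 s) := continuous_snd.tendsto (x, s)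
    have g1 := (hθ.continuousAt (hΩ.mem_nhds hx)).tendsto.comp t1
    filter_upwards [t1.eventually (hΩ.mem_nhds hx), t2.eventually_lt g1 h1] with q a1 a2
    exact ⟨a1, a2⟩
  refine ⟨fun x => min 1 (infDist ((x, 0) : V3 × ℝ) Sᶜ), ⟨fun x y => ?_, fun x hx => ?_,
    fun x hx => ?_, fun x => min_le_left _ _⟩, fun x hx => ?_⟩
  · have h1 : infDist ((x, 0) : V3 × ℝ) Sᶜ ≤ infDist ((y, 0) : V3 × ℝ) Sᶜ +
        dist ((x, 0) : V3 × ℝ) (y, 0) := infDist_le_infDist_add_dist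
    have h0 : dist ((x, 0) : V3 × ℝ) (y, 0) = ‖x - y‖ := by
      rw [Prod.dist_eq, dist_self, dist_eq_norm]
      exact max_eq_left (norm_nonneg _)
    rw [h0] at h1
    have h2 := norm_nonneg (x - y)
    rcases min_cases (1 : ℝ) (infDist ((y, 0) : V3 × ℝ) Sᶜ) with h | h
    · rw [h.1]
      exact (min_le_left _ _).trans (by linarith)
    · rw [h.1]
      exact (min_le_right _ _).trans (by linarith)
  · refine lt_min one_pos ?_
    rw [← hSo.isClosed_compl.notMem_iff_infDist_pos hne]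
    exact fun h => h ⟨hx, hθ0 x hx⟩
  · refine (min_le_right _ _).trans ?_
    rw [infDist_zero_of_mem (show ((x, 0) : V3 × ℝ) ∈ Sᶜ from fun h => hx h.1)]
  · refine (min_le_right _ _).trans ?_
    have h1 : ((x, θ x) : V3 × ℝ) ∈ Sᶜ := fun h => lt_irrefl _ h.2
    refine (infDist_le_dist_of_mem h1).trans ?_
    rw [Prod.dist_eq, dist_self, Real.dist_eq]
    have := hθ0 x hx
    rw [zero_sub, abs_neg, abs_of_pos this]
    exact (max_eq_right this.le).le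

/-- off the grid planes, closed cells are open cells -/
theorem mem_open {v : V3} {n : ℕ} {m : Fin 3 → ℤ} {x : V3} (hx : x ∈ dyc v n m)
    (h : ∀ (l : Fin 3) (q : ℤ), (x l - v l) * 2 ^ n ≠ q) :
    ∀ k, |x k - cen v n m k| < rad n := by
  rw [dyo_iff]
  intro k
  have hp : (2 : ℝ) ^ n ≠ 0 := by positivity
  obtain ⟨h1, h2⟩ := hx k
  refine ⟨lt_of_le_of_ne h1 fun he => h k (m k) ?_, lt_of_le_of_ne h2 fun he => h k (m k + 1) ?_⟩
  · rw [← he]
    field_simp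
    ring
  · rw [he]
    push_cast
    field_simp
    ring

/-- **boxes around `K`, inside a neighbourhood, with a prescribed mesh** -/
theorem boxes_mesh {Ω K N : Set V3} {θ : V3 → ℝ} (hΩ : IsOpen Ω) (hb : Bornology.IsBounded Ω)
    (hN : IsOpen N) (hKN : K ⊆ N) (hNΩ : N ⊆ Ω) (hK : IsOpen (Ω \ K))
    (hP : ∀ k : Fin 3, volume ((fun x : V3 => x k) '' K) = 0)
    (hθ : ContinuousOn θ Ω) (hθ0 : ∀ x ∈ Ω, 0 < θ x) :
    ∃ W : Boxes Ω K, ∀ i, cube (W.c i) (W.ρ i) ⊆ N ∧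
      ∀ y ∈ cube (W.c i) (W.ρ i), 2 * W.ρ i ≤ θ y := by
  obtain ⟨ρ₀, hρ0, hρθ⟩ := exists_minorant hΩ hθ hθ0
  have hNc := compl_nonempty hb hNΩ
  obtain ⟨v, hv, -⟩ := exists_origin hP hN hNc (H := fun _ => 0) measurable_const
  have hρ := sizeFn_sizR (ρ₀ := ρ₀) hb hN hKN hNΩ hK hρ0.lip hρ0.pos
  refine ⟨{ mkWR v hΩ hρ with cover := ?_ }, ?_⟩
  · intro x hx
    obtain ⟨n, m, h1, h2⟩ := (_root_.P073.Net.specNC Ω _ hρ v).2.1 x (hNΩ (hKN hx))
    exact ⟨⟨(n, m), h1, x, h2, hx⟩, mem_open h2 (hv x hx n)⟩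
  · rintro ⟨⟨n, m⟩, h⟩
    have e : cube (cen v n m) (rad n) = dyc v n m := (dyc_eq v n m).symm
    refine ⟨?_, fun y hy => ?_⟩
    · show cube (cen v n m) (rad n) ⊆ N
      rw [e]
      exact tileR_sub h
    · have hy' : y ∈ dyc v n m := by
        rw [← e]
        exact hy
      have h1 := h.1.1 y hy'
      have h2 : sizR ρ₀ Ω K N y ≤ ρ₀ y := min_le_left _ _
      have h3 := hρθ y (hNΩ (tileR_sub h hy'))
      show 2 * rad n ≤ θ y
      rw [two_rad]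
      linarith

end Vale.Agent.P073.RT.H739
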