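import Vale.Agent.P073.RT.H739.Tiling

/-!
# P073, theorem (RT), row G5 with a size function
-/

namespace Vale.Agent.P073.RT.H739

open MeasureTheory Set Filter Topology Metric
open Vale.Agent.P073.SQ (cube)
open Vale.Agent.P073.H880 (Boxes)
open Vale.Agent.P073.H739
open _root_.P073.Net (SizeFn IsTile dyc dyo)
open _root_.P073.PA691 (BoxCx IsDy)
open scoped ENNReal

/-- the size function -/
noncomputable def sizR (ρ₀ : V3 → ℝ) (Ω K N : Set V3) (x : V3) : ℝ :=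
  min (ρ₀ x) (siz Ω K N x)

theorem sizeFn_sizR {Ω K N : Set V3} {ρ₀ : V3 → ℝ} (hb : Bornology.IsBounded Ω) (hN : IsOpen N)
    (hKN : K ⊆ N) (hNΩ : N ⊆ Ω) (hK : IsOpen (Ω \ K)) (h1 : ∀ x y, ρ₀ x ≤ ρ₀ y + ‖x - y‖)
    (h2 : ∀ x ∈ Ω, 0 < ρ₀ x) : SizeFn Ω (sizR ρ₀ Ω K N) := by
  have h := sizeFn_siz hb hN hKN hNΩ hK
  refine ⟨fun x y => ?_, fun x hx => lt_min (h2 x hx) (h.pos x hx),
    fun x hx => (min_le_right _ _).trans (h.off x hx),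
    fun x => (min_le_right _ _).trans (h.le_one x)⟩
  unfold sizR
  rw [← min_add_add_right]
  exact min_le_min (h1 x y) (h.lip x y)

theorem sizR_le {ρ₀ : V3 → ℝ} {Ω K N : Set V3} {x : V3} (hx : x ∈ K) :
    sizR ρ₀ Ω K N x ≤ infDist x Nᶜ / 2 :=
  (min_le_right _ _).trans (siz_le hx)

/-- tiles which meet `K` -/
def TkR (ρ₀ : V3 → ℝ) (Ω K N : Set V3) (v : V3) (n : ℕ) (m : Fin 3 → ℤ) : Prop :=
  IsTile (sizR ρ₀ Ω K N) v n m ∧ (dyc v n m ∩ K).Nonempty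

theorem tileR_sub {ρ₀ : V3 → ℝ} {Ω K N : Set V3} {v : V3} {n : ℕ} {m : Fin 3 → ℤ} (h : TkR ρ₀ Ω K N v n m) :
    dyc v n m ⊆ N := by
  obtain ⟨ht, x, hx, hxK⟩ := h
  intro y hy
  by_contra hc
  have h1 := ht.1 x hx
  have h2 := sizR_le (ρ₀ := ρ₀) (Ω := Ω) (N := N) hxK
  have h3 : infDist x Nᶜ ≤ dist x y := infDist_le_dist_of_mem hc
  rw [dist_eq_norm] at h3
  have h4 := _root_.P073.Net.NC.dist_le hx hy
  have h5 : (0:ℝ) < 1 / 2 ^ n := by positivity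
  linarith

/-- the family of the tiles which meet `K` -/
noncomputable def mkWR {ρ₀ : V3 → ℝ} {Ω K N : Set V3} (v : V3) (hΩ : IsOpen Ω) (hρ : SizeFn Ω (sizR ρ₀ Ω K N)) :
    Boxes Ω ∅ where
  ι := {a : ℕ × (Fin 3 → ℤ) // TkR ρ₀ Ω K N v a.1 a.2}
  cnt := inferInstance
  c i := cen v i.1.1 i.1.2
  ρ i := rad i.1.1
  pos i := rad_pos _
  sub i := by
    rw [← dyc_eq]
    exact (_root_.P073.Net.specNC Ω _ hρ v).1 _ _ i.2.1
  disj i j hij x hx hx' := by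
    rw [dyo_iff] at hx
    have hx2 : x ∈ dyc v j.1.1 j.1.2 := by
      rw [dyc_eq]
      exact hx'
    have h := (_root_.P073.Net.specNC Ω _ hρ v).2.2.1 _ _ _ _ i.2.1 j.2.1
      (fun he => hij (Subtype.ext he))
    exact Set.disjoint_left.mp h hx hx2
  cover x hx := absurd hx (notMem_empty _)
  fin x hx := by
    obtain ⟨r, hr, hrΩ⟩ := Metric.isOpen_iff.mp hΩ x hx
    have hsub : closedBall x (r / 2) ⊆ Ω := (closedBall_subset_ball (by linarith)).trans hrΩ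
    have h := (_root_.P073.Net.specNC Ω _ hρ v).2.2.2.2 _ hsub (isCompact_closedBall x (r / 2))
    refine ⟨closedBall x (r / 2), closedBall_mem_nhds x (by positivity), ?_⟩
    refine (h.preimage (f := fun i : {a : ℕ × (Fin 3 → ℤ) // TkR ρ₀ Ω K N v a.1 a.2} => i.1)
      (Subtype.val_injective.injOn)).subset ?_
    rintro i hi
    refine ⟨i.2.1, ?_⟩
    rw [dyc_eq]
    exact hi

/-- **Row G5 with a size function** -/
def SpecTilingR : Prop :=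
  ∀ (Ω K : Set V3) (H : V3 → ℝ≥0∞) (ε : ℝ) (P : Fin 3 → ℝ → Prop) (ρ₀ : V3 → ℝ), IsOpen Ω →
    Ω.Nonempty → Bornology.IsBounded Ω → K ⊆ Ω → IsOpen (Ω \ K) → (∀ k, ∀ᵐ t : ℝ, P k t) →
    (∀ k, ∀ᵐ t : ℝ, ∀ j, j ≠ k → volume ((fun x : V3 => x j) '' (K ∩ {x | x k = t})) = 0) →
    Measurable H → ∫⁻ x in Ω, H x ≠ ⊤ → 0 < ε →
    (∀ x y, ρ₀ x ≤ ρ₀ y + ‖x - y‖) → (∀ x ∈ Ω, 0 < ρ₀ x) →
    ∃ (v : V3) (X : BoxCx Ω v) (W : Boxes Ω ∅),
      (∀ i, ∃ p, cube (W.c i) (W.ρ i) = X.cube p ∧ (X.cube p ∩ K).Nonempty) ∧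
      (∀ p, (X.cube p ∩ K).Nonempty → ∃ i, cube (W.c i) (W.ρ i) = X.cube p) ∧
      (∀ x ∈ K, ∀ e, x ∉ X.edge e) ∧ (∀ s, P (X.nrm s) (X.slo s (X.nrm s))) ∧
      volume (⋃ i, cube (W.c i) (W.ρ i)) ≤ ENNReal.ofReal ε ∧
      ∫⁻ x in ⋃ i, cube (W.c i) (W.ρ i), H x ≤ ENNReal.ofReal ε ∧
      (∑' i, ∑ k, ∑ σ ∈ ({1, -1} : Finset ℝ),
        ∫⁻ x in cube (W.c i) (W.ρ i), H (Function.update x k (W.c i k + σ * W.ρ i)) ≤
          ENNReal.ofReal ε) ∧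
      ∀ q, ∀ x ∈ X.cube q, ∀ y ∈ X.cube q, ‖x - y‖ ≤ ρ₀ x

theorem specTilingR : SpecTilingR := by
  intro Ω K H ε P ρ₀ hΩ hne hb hKΩ hK hP hSl hH hHi hε hρ1 hρ2
  have hKm : MeasurableSet K := by
    have : K = Ω \ (Ω \ K) := by
      rw [sdiff_sdiff_cancel_left hKΩ]
    rw [this]
    exact hΩ.measurableSet.diff hK.measurableSet
  have hSl' : ∀ k, ∀ᵐ t : ℝ, Sl K k t := hSl
  have hK0 : volume K = 0 := null_of_slices hKm (hSl' 0)
  set ε' : ℝ≥0∞ := ENNReal.ofReal ε with hε'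
  have hε0 : ε' ≠ 0 := (ENNReal.ofReal_pos.mpr hε).ne'
  obtain ⟨N, hN1, hN2, hN3, hN4, hN5⟩ := exists_nbhd (δ := ε' / 126) hΩ hKΩ hK0 hHi
    (ENNReal.div_ne_zero.mpr ⟨hε0, by norm_num⟩)
  have hd1 : ε' / 126 ≤ ε' := by
    calc ε' / 126 ≤ ε' / 1 := ENNReal.div_le_div_left (by norm_num) _
      _ = ε' := div_one _
  have hρ := sizeFn_sizR hb hN1 hN2 hN3 hK hρ1 hρ2
  set d : V3 → ℝ := N.indicator (sizR ρ₀ Ω K N) with hd
  have hdm : Measurable d :=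
    (_root_.P073.Net.NC.cont hρ).measurable.indicator hN1.measurableSet
  have hdN : ∀ x, 0 < d x → x ∈ N := by
    intro x hx
    by_contra hc
    rw [hd, indicator_of_notMem hc] at hx
    exact lt_irrefl _ hx
  obtain ⟨v, hv1, hv2, hv3⟩ := exists_v hP hSl' hdm hH hdN
  obtain ⟨X, hX1, hX2⟩ := _root_.P073.TM.specTilesCx Ω (sizR ρ₀ Ω K N) v hΩ hρ
  have hTA : ∀ n m, TkR ρ₀ Ω K N v n m → closedBall (cen v n m) (rad n) ⊆ A d n := by
    intro n m h x hx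
    rw [← cube_eq (rad_pos n).le, ← dyc_eq] at hx
    have h1 := (_root_.P073.Net.specNC Ω _ hρ v).2.2.2.1 _ _ h.1 x hx
    have h2 : d x = sizR ρ₀ Ω K N x := indicator_of_mem (tileR_sub h hx) _
    rw [← h2] at h1
    exact ⟨h1.1, Or.inr h1.2⟩
  have hU : (⋃ i : {a : ℕ × (Fin 3 → ℤ) // TkR ρ₀ Ω K N v a.1 a.2},
      cube (cen v i.1.1 i.1.2) (rad i.1.1)) ⊆ N := iUnion_subset fun i => by
    rw [← dyc_eq]
    exact tileR_sub i.2
  refine ⟨v, X, mkWR v hΩ hρ, ?_, ?_, ?_, ?_, ?_, ?_, ?_, ?_⟩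
  · rintro ⟨⟨n, m⟩, h⟩
    obtain ⟨p, hp⟩ := hX1 n m h.1
    have h1 : X.cube p = dyc v n m := hp
    refine ⟨p, ?_, ?_⟩
    · rw [h1]
      exact (dyc_eq v n m).symm
    · rw [h1]
      exact h.2
  · intro p hp
    obtain ⟨n, m, h1, h2⟩ := hX2 p
    have h3 : X.cube p = dyc v n m := h2
    rw [h3] at hp ⊢
    exact ⟨⟨(n, m), h1, hp⟩, (dyc_eq v n m).symm⟩
  · intro x hx e hxe
    obtain ⟨k, j, hkj, hk, hj⟩ := two_dirs (X.dir e)
    have key : ∀ l, l ≠ X.dir e → Dy (v l) (x l) := by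
      intro l hl
      have h1 : x l = X.w (X.a e) l := le_antisymm ((hxe.2 l).trans (X.ab_off e l hl).ge)
        (hxe.1 l)
      rw [h1]
      exact Dy_of_isDy (X.w_dy _ _)
    exact hv2 x hx k j hkj (key k hk) (key j hj)
  · intro s
    exact hv1 _ _ (Dy_of_isDy (X.s_dy s))
  · exact (measure_mono hU).trans (hN4.trans hd1)
  · exact (lintegral_mono_set hU).trans (hN5.trans hd1)
  · have h1 := faces_le' hTA H (42 * ∫⁻ x in N, H x) hv3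
    refine h1.trans ?_
    calc 3 * (42 * ∫⁻ x in N, H x) ≤ 3 * (42 * (ε' / 126)) := by gcongr
      _ = 126 * (ε' / 126) := by rw [← mul_assoc]; norm_num
      _ = ε' := ENNReal.mul_div_cancel (by norm_num) (by norm_num)
  · intro q x hx y hy
    obtain ⟨n, m, h1, h2⟩ := hX2 q
    have h3 : X.cube q = dyc v n m := h2
    rw [h3] at hx hy
    have h4 := _root_.P073.Net.NC.dist_le hx hy
    have h5 := h1.1 x hx
    have h6 : sizR ρ₀ Ω K N x ≤ ρ₀ x := min_le_left _ _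
    have h7 : (0:ℝ) < 1 / 2 ^ n := by positivity
    linarith

end Vale.Agent.P073.RT.H739
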