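import Vale.Agent.P073.RT.H655.Rows2
import Vale.Agent.P073.RT.H739.TilingR

/-!
# P073, theorem (RT), row G5'
-/

namespace Vale.Agent.P073.RT.H739

/-- **Row G5'** -/
theorem specTiling2 : Vale.Agent.P073.RT.SpecTiling2 :=
  fun Ω K H ε P ρ₀ hΩ hne hb hρ hK1 hK2 hP hs hH hHi hε =>
    specTilingR Ω K H ε P ρ₀ hΩ hne hb hK1 hK2 hP hs hH hHi hε hρ.lip hρ.pos

end Vale.Agent.P073.RT.H739
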