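import Vale.Agent.P073.RT.H739.Origin
import Vale.Agent.P073.TM907.Main
import Vale.Agent.P073.Net.NC

/-!
# P073, theorem (RT), row G5: choice of the tiling
-/

namespace Vale.Agent.P073.RT.H739

open MeasureTheory Set Filter Topology Metric
open Vale.Agent.P073.SQ (cube)
open Vale.Agent.P073.H880 (Boxes)
open Vale.Agent.P073.H739
open _root_.P073.Net (SizeFn IsTile dyc dyo)
open _root_.P073.PA691 (BoxCx IsDy)
open scoped ENNReal

/-- the size function -/
noncomputable def siz (Ω K N : Set V3) (x : V3) : ℝ :=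
  min 1 ((infDist x Nᶜ + infDist x (Ω \ K)ᶜ) / 2)

theorem sizeFn_siz {Ω K N : Set V3} (hb : Bornology.IsBounded Ω) (hN : IsOpen N) (hKN : K ⊆ N)
    (hNΩ : N ⊆ Ω) (hK : IsOpen (Ω \ K)) : SizeFn Ω (siz Ω K N) := by
  have hNc := compl_nonempty hb hNΩ
  have hKc := compl_nonempty hb (sdiff_subset (s := Ω) (t := K))
  refine ⟨fun x y => ?_, fun x hx => ?_, fun x hx => ?_, fun x => min_le_left _ _⟩
  · have h1 : infDist x Nᶜ ≤ infDist y Nᶜ + dist x y := infDist_le_infDist_add_dist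
    have h2 : infDist x (Ω \ K)ᶜ ≤ infDist y (Ω \ K)ᶜ + dist x y := infDist_le_infDist_add_dist
    rw [dist_eq_norm] at h1 h2
    have h3 := norm_nonneg (x - y)
    unfold siz
    rcases min_cases (1 : ℝ) ((infDist y Nᶜ + infDist y (Ω \ K)ᶜ) / 2) with h | h
    · rw [h.1]
      exact (min_le_left _ _).trans (by linarith)
    · rw [h.1]
      exact (min_le_right _ _).trans (by linarith)
  · unfold siz
    have h1 : 0 ≤ infDist x Nᶜ := infDist_nonneg
    have h2 : 0 ≤ infDist x (Ω \ K)ᶜ := infDist_nonneg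
    refine lt_min one_pos ?_
    by_cases hxN : x ∈ N
    · have h3 : 0 < infDist x Nᶜ := by
        rw [← hN.isClosed_compl.notMem_iff_infDist_pos hNc]
        exact fun h => h hxN
      linarith
    · have h3 : 0 < infDist x (Ω \ K)ᶜ := by
        rw [← hK.isClosed_compl.notMem_iff_infDist_pos hKc]
        exact fun h => h ⟨hx, fun h' => hxN (hKN h')⟩
      linarith
  · unfold siz
    rw [infDist_zero_of_mem (show x ∈ Nᶜ from fun h => hx (hNΩ h)),
      infDist_zero_of_mem (show x ∈ (Ω \ K)ᶜ from fun h => hx h.1)]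
    refine (min_le_right _ _).trans ?_
    norm_num

theorem siz_le {Ω K N : Set V3} {x : V3} (hx : x ∈ K) : siz Ω K N x ≤ infDist x Nᶜ / 2 := by
  unfold siz
  rw [infDist_zero_of_mem (show x ∈ (Ω \ K)ᶜ from fun h => h.2 hx), add_zero]
  exact min_le_right _ _

theorem dyc_eq (v : V3) (m : ℕ) (z : Fin 3 → ℤ) : dyc v m z = cube (cen v m z) (rad m) := by
  ext x
  show (∀ k, v k + z k / 2 ^ m ≤ x k ∧ x k ≤ v k + (z k + 1) / 2 ^ m) ↔
    ∀ k, |x k - cen v m z k| ≤ rad m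
  refine forall_congr' fun k => ?_
  rw [← cen_sub, ← cen_add, abs_le]
  constructor <;> rintro ⟨h1, h2⟩ <;> constructor <;> linarith

theorem dyo_iff (v : V3) (m : ℕ) (z : Fin 3 → ℤ) (x : V3) :
    (∀ k, |x k - cen v m z k| < rad m) ↔ x ∈ dyo v m z := by
  show _ ↔ ∀ k, v k + z k / 2 ^ m < x k ∧ x k < v k + (z k + 1) / 2 ^ m
  refine forall_congr' fun k => ?_
  rw [← cen_sub, ← cen_add, abs_lt]
  constructor <;> rintro ⟨h1, h2⟩ <;> constructor <;> linarith

/-- tiles which meet `K` -/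
def Tk (Ω K N : Set V3) (v : V3) (n : ℕ) (m : Fin 3 → ℤ) : Prop :=
  IsTile (siz Ω K N) v n m ∧ (dyc v n m ∩ K).Nonempty

theorem tile_sub {Ω K N : Set V3} {v : V3} {n : ℕ} {m : Fin 3 → ℤ} (h : Tk Ω K N v n m) :
    dyc v n m ⊆ N := by
  obtain ⟨ht, x, hx, hxK⟩ := h
  intro y hy
  by_contra hc
  have h1 := ht.1 x hx
  have h2 := siz_le (Ω := Ω) (N := N) hxK
  have h3 : infDist x Nᶜ ≤ dist x y := infDist_le_dist_of_mem hc
  rw [dist_eq_norm] at h3
  have h4 := _root_.P073.Net.NC.dist_le hx hy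
  have h5 : (0:ℝ) < 1 / 2 ^ n := by positivity
  linarith

/-- the family of the tiles which meet `K` -/
noncomputable def mkW {Ω K N : Set V3} (v : V3) (hΩ : IsOpen Ω) (hρ : SizeFn Ω (siz Ω K N)) :
    Boxes Ω ∅ where
  ι := {a : ℕ × (Fin 3 → ℤ) // Tk Ω K N v a.1 a.2}
  cnt := inferInstance
  c i := cen v i.1.1 i.1.2
  ρ i := rad i.1.1
  pos i := rad_pos _
  sub i := by
    rw [← dyc_eq]
    exact (_root_.P073.Net.specNC Ω _ hρ v).1 _ _ i.2.1
  disj i j hij x hx hx' := by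
    rw [dyo_iff] at hx
    have hx2 : x ∈ dyc v j.1.1 j.1.2 := by
      rw [dyc_eq]
      exact hx'
    have h := (_root_.P073.Net.specNC Ω _ hρ v).2.2.1 _ _ _ _ i.2.1 j.2.1
      (fun he => hij (Subtype.ext he))
    exact Set.disjoint_left.mp h hx hx2
  cover x hx := absurd hx (notMem_empty _)
  fin x hx := by
    obtain ⟨r, hr, hrΩ⟩ := Metric.isOpen_iff.mp hΩ x hx
    have hsub : closedBall x (r / 2) ⊆ Ω := (closedBall_subset_ball (by linarith)).trans hrΩ
    have h := (_root_.P073.Net.specNC Ω _ hρ v).2.2.2.2 _ hsub (isCompact_closedBall x (r / 2))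
    refine ⟨closedBall x (r / 2), closedBall_mem_nhds x (by positivity), ?_⟩
    refine (h.preimage (f := fun i : {a : ℕ × (Fin 3 → ℤ) // Tk Ω K N v a.1 a.2} => i.1)
      (Subtype.val_injective.injOn)).subset ?_
    rintro i hi
    refine ⟨i.2.1, ?_⟩
    rw [dyc_eq]
    exact hi

theorem two_dirs : ∀ l : Fin 3, ∃ k j : Fin 3, k ≠ j ∧ k ≠ l ∧ j ≠ l := by decide

theorem Dy_of_isDy {t x : ℝ} (h : IsDy (x - t)) : Dy t x := by
  obtain ⟨z, m, h⟩ := h
  refine ⟨m, z, ?_⟩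
  rw [h]
  field_simp

/-- **Row G5** -/
theorem specTiling : SpecTiling := by
  intro Ω K H ε P hΩ hne hb hKΩ hK hP hSl hH hHi hε
  have hKm : MeasurableSet K := by
    have : K = Ω \ (Ω \ K) := by
      rw [sdiff_sdiff_cancel_left hKΩ]
    rw [this]
    exact hΩ.measurableSet.diff hK.measurableSet
  have hSl' : ∀ k, ∀ᵐ t : ℝ, Sl K k t := hSl
  have hK0 : volume K = 0 := null_of_slices hKm (hSl' 0)
  set ε' : ℝ≥0∞ := ENNReal.ofReal ε with hε'
  have hε0 : ε' ≠ 0 := (ENNReal.ofReal_pos.mpr hε).ne'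
  obtain ⟨N, hN1, hN2, hN3, hN4, hN5⟩ := exists_nbhd (δ := ε' / 126) hΩ hKΩ hK0 hHi
    (ENNReal.div_ne_zero.mpr ⟨hε0, by norm_num⟩)
  have hd1 : ε' / 126 ≤ ε' := by
    calc ε' / 126 ≤ ε' / 1 := ENNReal.div_le_div_left (by norm_num) _
      _ = ε' := div_one _
  have hρ := sizeFn_siz hb hN1 hN2 hN3 hK
  set d : V3 → ℝ := N.indicator (siz Ω K N) with hd
  have hdm : Measurable d :=
    (_root_.P073.Net.NC.cont hρ).measurable.indicator hN1.measurableSet
  have hdN : ∀ x, 0 < d x → x ∈ N := by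
    intro x hx
    by_contra hc
    rw [hd, indicator_of_notMem hc] at hx
    exact lt_irrefl _ hx
  obtain ⟨v, hv1, hv2, hv3⟩ := exists_v hP hSl' hdm hH hdN
  obtain ⟨X, hX1, hX2⟩ := _root_.P073.TM.specTilesCx Ω (siz Ω K N) v hΩ hρ
  have hTA : ∀ n m, Tk Ω K N v n m → closedBall (cen v n m) (rad n) ⊆ A d n := by
    intro n m h x hx
    rw [← cube_eq (rad_pos n).le, ← dyc_eq] at hx
    have h1 := (_root_.P073.Net.specNC Ω _ hρ v).2.2.2.1 _ _ h.1 x hx
    have h2 : d x = siz Ω K N x := indicator_of_mem (tile_sub h hx) _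
    rw [← h2] at h1
    exact ⟨h1.1, Or.inr h1.2⟩
  have hU : (⋃ i : {a : ℕ × (Fin 3 → ℤ) // Tk Ω K N v a.1 a.2},
      cube (cen v i.1.1 i.1.2) (rad i.1.1)) ⊆ N := iUnion_subset fun i => by
    rw [← dyc_eq]
    exact tile_sub i.2
  refine ⟨v, X, mkW v hΩ hρ, ?_, ?_, ?_, ?_, ?_, ?_, ?_⟩
  · rintro ⟨⟨n, m⟩, h⟩
    obtain ⟨p, hp⟩ := hX1 n m h.1
    have h1 : X.cube p = dyc v n m := hp
    refine ⟨p, ?_, ?_⟩
    · rw [h1]
      exact (dyc_eq v n m).symm
    · rw [h1]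
      exact h.2
  · intro p hp
    obtain ⟨n, m, h1, h2⟩ := hX2 p
    have h3 : X.cube p = dyc v n m := h2
    rw [h3] at hp ⊢
    exact ⟨⟨(n, m), h1, hp⟩, (dyc_eq v n m).symm⟩
  · intro x hx e hxe
    obtain ⟨k, j, hkj, hk, hj⟩ := two_dirs (X.dir e)
    have key : ∀ l, l ≠ X.dir e → Dy (v l) (x l) := by
      intro l hl
      have h1 : x l = X.w (X.a e) l := le_antisymm ((hxe.2 l).trans (X.ab_off e l hl).ge)
        (hxe.1 l)
      rw [h1]
      exact Dy_of_isDy (X.w_dy _ _)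
    exact hv2 x hx k j hkj (key k hk) (key j hj)
  · intro s
    exact hv1 _ _ (Dy_of_isDy (X.s_dy s))
  · exact (measure_mono hU).trans (hN4.trans hd1)
  · exact (lintegral_mono_set hU).trans (hN5.trans hd1)
  · have h1 := faces_le' hTA H (42 * ∫⁻ x in N, H x) hv3
    refine h1.trans ?_
    calc 3 * (42 * ∫⁻ x in N, H x) ≤ 3 * (42 * (ε' / 126)) := by gcongr
      _ = 126 * (ε' / 126) := by rw [← mul_assoc]; norm_num
      _ = ε' := ENNReal.mul_div_cancel (by norm_num) (by norm_num)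

end Vale.Agent.P073.RT.H739
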