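import Vale.Agent.P073.H739.Boxes
import Vale.Agent.P073.RT.Rows

/-!
# P073, theorem (RT), row G5, part 1: choice of the origin, sum over the faces
-/

namespace Vale.Agent.P073.RT.H739

open MeasureTheory Set Filter Topology Metric
open Vale.Agent.P073.SQ (cube)
open Vale.Agent.P073.H739
open scoped ENNReal

/-- the slices of `K` over the level `t` in direction `k` have null projections -/
def Sl (K : Set V3) (k : Fin 3) (t : ℝ) : Prop :=
  ∀ j, j ≠ k → volume ((fun x : V3 => x j) '' (K ∩ {x | x k = t})) = 0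

/-- dyadic translate -/
def Dy (t x : ℝ) : Prop := ∃ n : ℕ, ∃ m : ℤ, (x - t) * 2 ^ n = m

theorem Dy.eq {t x : ℝ} (h : Dy t x) : ∃ n : ℕ, ∃ m : ℤ, x = t + m / 2 ^ n := by
  obtain ⟨n, m, h⟩ := h
  refine ⟨n, m, ?_⟩
  have hp : (2 : ℝ) ^ n ≠ 0 := by positivity
  rw [← h]
  field_simp
  ring

theorem null_bad' {S : Set ℝ} (hS : volume S = 0) : volume {t : ℝ | ∃ x ∈ S, Dy t x} = 0 :=
  null_bad hS

/-- points of `K` on the grid planes -/
def tr (K : Set V3) (k j : Fin 3) (t : ℝ) : Set ℝ :=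
  {y | ∃ x ∈ K, Dy t (x k) ∧ x j = y}

theorem null_tr {K : Set V3} {k j : Fin 3} {t : ℝ} (hj : j ≠ k) (h : ∀ x, Dy t x → Sl K k x) :
    volume (tr K k j t) = 0 := by
  have : tr K k j t ⊆ ⋃ n : ℕ, ⋃ m : ℤ,
      (fun x : V3 => x j) '' (K ∩ {x | x k = t + m / 2 ^ n}) := by
    rintro y ⟨x, hx, hd, rfl⟩
    obtain ⟨n, m, hm⟩ := hd.eq
    exact mem_iUnion₂.mpr ⟨n, m, x, ⟨hx, hm⟩, rfl⟩
  refine measure_mono_null this (measure_iUnion_null fun n => measure_iUnion_null fun m => ?_)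
  refine h _ ⟨n, m, ?_⟩ j hj
  have hp : (2 : ℝ) ^ n ≠ 0 := by positivity
  field_simp
  ring

/-- a set with small slices is a null set. -/
theorem null_of_slices {K : Set V3} (hK : MeasurableSet K) (h : ∀ᵐ t : ℝ, Sl K 0 t) :
    volume K = 0 := by
  set e := MeasurableEquiv.piFinSuccAbove (fun _ : Fin 3 => ℝ) 0 with he
  have hmp := volume_preserving_piFinSuccAbove (fun _ : Fin 3 => ℝ) 0
  have hm : MeasurableSet (e.symm ⁻¹' K) := e.symm.measurable hK
  have h1 : volume (e.symm ⁻¹' K) = volume K := hmp.symm.measure_preimage hK.nullMeasurableSet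
  rw [← h1, Measure.volume_eq_prod, Measure.measure_prod_null hm]
  filter_upwards [h] with t ht
  have h2 := ht 1 (by decide)
  have h3 := (Measure.quasiMeasurePreserving_eval (fun _ : Fin 2 => (volume : Measure ℝ)) 0)
  have h4 := h3.preimage_null h2
  refine measure_mono_null ?_ h4
  intro y hy
  refine ⟨e.symm (t, y), ⟨hy, ?_⟩, ?_⟩
  · show (Fin.insertNth (α := fun _ => ℝ) 0 t y) 0 = t
    simp
  · show (Fin.insertNth (α := fun _ => ℝ) 0 t y) 1 = y 0
    simp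

/-- the two sums over the faces, in one direction -/
noncomputable def SS (d : V3 → ℝ) (H : V3 → ℝ≥0∞) (k : Fin 3) (t : ℝ) : ℝ≥0∞ :=
  ∑' n, ((∫⁻ x, (A d n).indicator H (Function.update x k (posn n 0 t (x k)))) +
      (∫⁻ x, (A d n).indicator H (Function.update x k (posn n 1 t (x k)))))

/-- choice of the origin -/
theorem exists_v {K N : Set V3} {d : V3 → ℝ} {H : V3 → ℝ≥0∞} {P : Fin 3 → ℝ → Prop}
    (hP : ∀ k, ∀ᵐ t : ℝ, P k t) (hK : ∀ k, ∀ᵐ t : ℝ, Sl K k t) (hd : Measurable d)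
    (hH : Measurable H) (hN : ∀ x, 0 < d x → x ∈ N) :
    ∃ v : V3, (∀ k x, Dy (v k) x → P k x) ∧
      (∀ x ∈ K, ∀ k j, k ≠ j → Dy (v k) (x k) → ¬ Dy (v j) (x j)) ∧
      ∀ k, SS d H k (v k) ≤ 42 * ∫⁻ x in N, H x := by
  have hQ : ∀ k, volume {t | ¬ (P k t ∧ Sl K k t)} = 0 := fun k => by
    rw [← ae_iff]
    filter_upwards [hP k, hK k] with t h1 h2 using ⟨h1, h2⟩
  have step : ∀ (k : Fin 3) (S : Set ℝ), volume S = 0 →
      ∃ t, (∀ x, Dy t x → P k x) ∧ (∀ x, Dy t x → Sl K k x) ∧ (∀ x ∈ S, ¬ Dy t x) ∧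
        SS d H k t ≤ 42 * ∫⁻ x in N, H x := by
    intro k S hS
    obtain ⟨t, ht1, ht2⟩ := exists_coord hd hH hN k (null_bad' (measure_union_null (hQ k) hS))
    refine ⟨t, fun x hx => ?_, fun x hx => ?_, fun x hx hx2 => ht1 ⟨x, Or.inr hx, hx2⟩, ht2⟩
    · by_contra hc
      exact ht1 ⟨x, Or.inl fun h => hc h.1, hx⟩
    · by_contra hc
      exact ht1 ⟨x, Or.inl fun h => hc h.2, hx⟩
  obtain ⟨v0, a1, a2, a3, a4⟩ := step 0 ∅ measure_empty
  obtain ⟨v1, b1, b2, b3, b4⟩ := step 1 (tr K 0 1 v0) (null_tr (by decide) a2)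
  obtain ⟨v2, c1, c2, c3, c4⟩ := step 2 (tr K 0 2 v0 ∪ tr K 1 2 v1)
    (measure_union_null (null_tr (by decide) a2) (null_tr (by decide) b2))
  have k01 : ∀ x ∈ K, Dy v0 (x 0) → ¬ Dy v1 (x 1) := fun x hx h => b3 _ ⟨x, hx, h, rfl⟩
  have k02 : ∀ x ∈ K, Dy v0 (x 0) → ¬ Dy v2 (x 2) := fun x hx h => c3 _ (Or.inl ⟨x, hx, h, rfl⟩)
  have k12 : ∀ x ∈ K, Dy v1 (x 1) → ¬ Dy v2 (x 2) := fun x hx h => c3 _ (Or.inr ⟨x, hx, h, rfl⟩)
  refine ⟨![v0, v1, v2], ?_, ?_, ?_⟩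
  · intro k
    fin_cases k
    · exact a1
    · exact b1
    · exact c1
  · intro x hx k j hkj
    fin_cases k <;> fin_cases j
    · exact absurd rfl hkj
    · exact k01 x hx
    · exact k02 x hx
    · exact fun h1 h2 => k01 x hx h2 h1
    · exact absurd rfl hkj
    · exact k12 x hx
    · exact fun h1 h2 => k02 x hx h2 h1
    · exact fun h1 h2 => k12 x hx h2 h1
    · exact absurd rfl hkj
  · intro k
    fin_cases k
    · exact a4
    · exact b4
    · exact c4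

/-- one face of a cell -/
theorem face_eq' {v : V3} {d : V3 → ℝ} {n : ℕ} {m : Fin 3 → ℤ}
    (h : closedBall (cen v n m) (rad n) ⊆ A d n) (H : V3 → ℝ≥0∞) (k : Fin 3) {s σ : ℝ}
    (hs : (s = 0 ∧ σ = -1) ∨ (s = 1 ∧ σ = 1)) :
    ∫⁻ x in cube (cen v n m) (rad n), H (Function.update x k (cen v n m k + σ * rad n)) =
      ∫⁻ x in Cell v n m, (A d n).indicator H
        (Function.update x k (posn n s (v k) (x k))) := by
  rw [← setLIntegral_congr (Cell_ae v n m)]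
  refine setLIntegral_congr_fun (measurableSet_Cell v n m) fun x hx => ?_
  have hx1 : idx v n x = m := hx
  have hpos : posn n s (v k) (x k) = cen v n m k + σ * rad n := by
    have hk : ⌊(x k - v k) * 2 ^ n⌋ = m k := congrFun hx1 k
    unfold posn
    rw [hk]
    rcases hs with ⟨rfl, rfl⟩ | ⟨rfl, rfl⟩
    · have := cen_sub v n m k
      rw [add_zero, ← this]
      ring
    · have := cen_add v n m k
      rw [← this]
      ring
  rw [hpos, indicator_of_mem]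
  refine h ?_
  have hxc : x ∈ closedBall (cen v n m) (rad n) := by
    have := mem_closedBall_idx v x n
    rwa [hx1] at this
  rw [← cube_eq (rad_pos n).le] at hxc ⊢
  intro l
  by_cases hl : l = k
  · subst hl
    rw [Function.update_self, add_sub_cancel_left, abs_mul, abs_of_pos (rad_pos n)]
    have : |σ| = 1 := by
      rcases hs with ⟨-, rfl⟩ | ⟨-, rfl⟩ <;> norm_num
    rw [this, one_mul]
  · rw [Function.update_of_ne hl]
    exact hxc l

/-- the sum over all faces of all cells of a family -/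
theorem faces_le' {v : V3} {d : V3 → ℝ} {S : ℕ → (Fin 3 → ℤ) → Prop}
    (hS : ∀ n m, S n m → closedBall (cen v n m) (rad n) ⊆ A d n) (H : V3 → ℝ≥0∞) (B : ℝ≥0∞)
    (hv : ∀ k : Fin 3, SS d H k (v k) ≤ B) :
    ∑' i : {a : ℕ × (Fin 3 → ℤ) // S a.1 a.2}, ∑ k, ∑ σ ∈ ({1, -1} : Finset ℝ),
      ∫⁻ x in cube (cen v i.1.1 i.1.2) (rad i.1.1),
        H (Function.update x k (cen v i.1.1 i.1.2 k + σ * rad i.1.1)) ≤ 3 * B := by
  classical
  set J : ℕ → (Fin 3 → ℤ) → Fin 3 → ℝ → ℝ≥0∞ := fun n m k s =>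
    ∫⁻ x in Cell v n m, (A d n).indicator H
        (Function.update x k (posn n s (v k) (x k))) with hJ
  have h1 : ∀ i : {a : ℕ × (Fin 3 → ℤ) // S a.1 a.2},
      ∑ k, ∑ σ ∈ ({1, -1} : Finset ℝ), ∫⁻ x in cube (cen v i.1.1 i.1.2) (rad i.1.1),
        H (Function.update x k (cen v i.1.1 i.1.2 k + σ * rad i.1.1)) =
      ∑ k, (J i.1.1 i.1.2 k 0 + J i.1.1 i.1.2 k 1) := by
    intro i
    refine Finset.sum_congr rfl fun k _ => ?_
    rw [Finset.sum_pair (by norm_num : (1 : ℝ) ≠ -1),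
      face_eq' (hS _ _ i.2) H k (Or.inr ⟨rfl, rfl⟩),
      face_eq' (hS _ _ i.2) H k (Or.inl ⟨rfl, rfl⟩), add_comm]
  rw [tsum_congr h1]
  calc ∑' i : {a : ℕ × (Fin 3 → ℤ) // S a.1 a.2},
        ∑ k, (J i.1.1 i.1.2 k 0 + J i.1.1 i.1.2 k 1)
      ≤ ∑' a : ℕ × (Fin 3 → ℤ), ∑ k, (J a.1 a.2 k 0 + J a.1 a.2 k 1) :=
        ENNReal.tsum_comp_le_tsum_of_injective Subtype.val_injective
          (fun a : ℕ × (Fin 3 → ℤ) => ∑ k, (J a.1 a.2 k 0 + J a.1 a.2 k 1))
    _ = ∑' n, ∑' m, ∑ k, (J n m k 0 + J n m k 1) :=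
        ENNReal.tsum_prod (f := fun n m => ∑ k, (J n m k 0 + J n m k 1))
    _ = ∑' n, ∑ k, (∑' m, J n m k 0 + ∑' m, J n m k 1) := by
        refine tsum_congr fun n => ?_
        rw [Summable.tsum_finsetSum (fun _ _ => ENNReal.summable)]
        refine Finset.sum_congr rfl fun k _ => ?_
        rw [ENNReal.tsum_add]
    _ ≤ ∑' n, ∑ k, ((∫⁻ x, (A d n).indicator H
        (Function.update x k (posn n 0 (v k) (x k)))) +
      (∫⁻ x, (A d n).indicator H
        (Function.update x k (posn n 1 (v k) (x k))))) := by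
        refine ENNReal.tsum_le_tsum fun n => Finset.sum_le_sum fun k _ => ?_
        exact add_le_add (tsum_cells v n _) (tsum_cells v n _)
    _ = ∑ k, SS d H k (v k) := by
        rw [Summable.tsum_finsetSum (fun _ _ => ENNReal.summable)]
        rfl
    _ ≤ ∑ _k : Fin 3, B := Finset.sum_le_sum fun k _ => hv k
    _ = 3 * B := by simp

end Vale.Agent.P073.RT.H739
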